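import Vale.Agent.P088.R2.H858.XKLa

/-!
# P088, stage 4: the two equations of the approximate solution (row X-KL)
-/

open MeasureTheory Set
open scoped ContDiff Matrix

noncomputable section

namespace Vale.Agent.P088.S4.H858

open Vale.Agent.P088.LR Vale.Agent.P088.LR.U Vale.Agent.P088.LR.H158
open Vale.Agent.P088.HY (VV)
open Vale.Agent.P088.PJ Vale.Agent.P088.PJ.H605

variable {n N : ℕ}

section eqs

variable {k2 : Fin n → Fin n → MC n N} {Y W : Fin n → MC n N} {W0 : MC n N}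
  (sk : ∀ i j, SmC (k2 i j)) (sY : ∀ a, SmC (Y a))
  (sW : ∀ a, SmC (W a)) (s0 : SmC W0)

include sk sY sW s0

/-- The second equation. -/
theorem eqL2t (sy : ∀ i j, k2 i j = k2 j i) {s : MF n} (hsy : ∀ x, (s x).IsSymm)
    (β : Fin n → MC n N) {z : VV n} {Γ : Fin n → Fin n → MC n N} {R T : Fin n → MC n N}
    (hΓ : ∀ l b, ∑ a, pdm l (Y a) z.2 * Γ a b z.2 = if l = b then 1 else 0)
    (hR : ∀ b, R b z.2 = (2 : ℂ) • (∑ i, ∑ j, (s z.2 i j : ℂ) • pdm i (k2 j b) z.2)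
      + ∑ j, k2 j b z.2 * β j z.2 + T b z.2)
    (hW : ∀ a, Rv s β (W a) z.2 = ∑ b, Γ a b z.2 * R b z.2)
    (hW0 : Rv s β W0 z.2 = -(∑ i, ∑ j, (s z.2 i j : ℂ) • k2 i j z.2 +
      ∑ a, Y a z.2 * ∑ b, Γ a b z.2 * R b z.2)) :
    Rk s β (Kf k2 Y W W0) z =
      (1 / 2 : ℂ) • (∑ a, ∑ b, (((z.1 a - z.2 a) * (z.1 b - z.2 b) : ℝ) : ℂ) •
        Rv s β (k2 a b) z.2)
      + ∑ a, ∑ b, (Y a z.1 - Y a z.2 - ∑ l, ((z.1 l - z.2 l : ℝ) : ℂ) • pdm l (Y a) z.2) *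
        (Γ a b z.2 * R b z.2) + ∑ l, qq l z • T l z.2 := by
  -- the sum with `Γ`
  have h1 : ∑ a, ∑ b, (∑ l, ((z.1 l - z.2 l : ℝ) : ℂ) • pdm l (Y a) z.2) *
      (Γ a b z.2 * R b z.2) = ∑ l, qq l z • R l z.2 := by
    have e1 : ∀ a b, (∑ l, ((z.1 l - z.2 l : ℝ) : ℂ) • pdm l (Y a) z.2) *
      (Γ a b z.2 * R b z.2) = ∑ l, qq l z • (pdm l (Y a) z.2 * Γ a b z.2 * R b z.2) := by
      intro a b
      rw [Finset.sum_mul]
      exact Finset.sum_congr rfl fun l _ => by rw [Matrix.smul_mul, Matrix.mul_assoc]; rfl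
    simp only [e1]
    have e2 : ∑ a, ∑ b, ∑ l, qq l z • (pdm l (Y a) z.2 * Γ a b z.2 * R b z.2) =
        ∑ l, ∑ b, ∑ a, qq l z • (pdm l (Y a) z.2 * Γ a b z.2 * R b z.2) := by
      rw [Finset.sum_comm]
      rw [Finset.sum_congr rfl fun b _ => Finset.sum_comm]
      exact Finset.sum_comm
    rw [e2]
    refine Finset.sum_congr rfl fun l _ => ?_
    have e3 : ∀ b, ∑ a, qq l z • (pdm l (Y a) z.2 * Γ a b z.2 * R b z.2) =
        qq l z • ((if l = b then 1 else 0) * R b z.2) := by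
      intro b
      rw [← Finset.smul_sum, ← Finset.sum_mul, hΓ]
    simp only [e3, ite_mul, Matrix.one_mul, Matrix.zero_mul, smul_ite, smul_zero,
      Finset.sum_ite_eq, Finset.mem_univ, if_true]
  have h2 : ∑ a, ∑ b, (Y a z.1 - Y a z.2 - ∑ l, ((z.1 l - z.2 l : ℝ) : ℂ) • pdm l (Y a) z.2) *
        (Γ a b z.2 * R b z.2) = ∑ a, Y a z.1 * Rv s β (W a) z.2 -
      ∑ a, Y a z.2 * (∑ b, Γ a b z.2 * R b z.2) - ∑ l, qq l z • R l z.2 := by
    rw [← h1]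
    simp only [sub_mul, Finset.sum_sub_distrib, hW, Finset.mul_sum]
  rw [h2]
  -- the sum with `q_b`
  have h3 : ∑ l, qq l z • R l z.2 = (∑ i, ∑ j, (s z.2 i j : ℂ) • ∑ b, qq b z • pdm j (k2 i b) z.2
      + ∑ i, ∑ j, (s z.2 i j : ℂ) • ∑ b, qq b z • pdm i (k2 j b) z.2)
      + ∑ i, (∑ b, qq b z • k2 i b z.2) * β i z.2 + ∑ l, qq l z • T l z.2 := by
    have e1 : ∑ i, ∑ j, (s z.2 i j : ℂ) • ∑ b, qq b z • pdm j (k2 i b) z.2 =
        ∑ i, ∑ j, (s z.2 i j : ℂ) • ∑ b, qq b z • pdm i (k2 j b) z.2 := by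
      rw [Finset.sum_comm]
      refine Finset.sum_congr rfl fun i _ => Finset.sum_congr rfl fun j _ => ?_
      rw [(hsy z.2).apply i j]
    have e2 : ∑ i, ∑ j, (s z.2 i j : ℂ) • ∑ b, qq b z • pdm i (k2 j b) z.2 =
        ∑ b, qq b z • ∑ i, ∑ j, (s z.2 i j : ℂ) • pdm i (k2 j b) z.2 := by
      simp only [Finset.smul_sum]
      rw [Finset.sum_congr rfl fun i _ => Finset.sum_comm, Finset.sum_comm]
      refine Finset.sum_congr rfl fun b _ => Finset.sum_congr rfl fun i _ =>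
        Finset.sum_congr rfl fun j _ => ?_
      rw [smul_comm]
    have e3 : ∑ i, (∑ b, qq b z • k2 i b z.2) * β i z.2 =
        ∑ b, qq b z • ∑ j, k2 j b z.2 * β j z.2 := by
      simp only [Finset.smul_sum, Finset.sum_mul, Matrix.smul_mul]
      exact Finset.sum_comm
    rw [e1, e2, e3]
    simp only [hR, smul_add, Finset.sum_add_distrib]
    congr 2
    rw [← two_smul ℂ, Finset.smul_sum]
    exact Finset.sum_congr rfl fun b _ => smul_comm _ _ _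
  rw [h3]
  -- the left hand side
  have h4 : (1 / 2 : ℂ) • (∑ a, ∑ b, (((z.1 a - z.2 a) * (z.1 b - z.2 b) : ℝ) : ℂ) •
        Rv s β (k2 a b) z.2) =
      ∑ i, ∑ j, (s z.2 i j : ℂ) • (1 / 2 : ℂ) • ∑ a, ∑ b, (qq a z * qq b z) •
        pdm i (pdm j (k2 a b)) z.2 +
      ∑ i, ((1 / 2 : ℂ) • ∑ a, ∑ b, (qq a z * qq b z) • pdm i (k2 a b) z.2) * β i z.2 := by
    unfold Rv
    have e0 : ∀ a b, (((z.1 a - z.2 a) * (z.1 b - z.2 b) : ℝ) : ℂ) = qq a z * qq b z := by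
      intro a b
      unfold qq
      push_cast
      ring
    simp only [e0, smul_add, Finset.sum_add_distrib, Matrix.smul_mul, Finset.sum_mul]
    congr 1
    · simp only [Finset.smul_sum]
      have c1 : ∀ F : Fin n → Fin n → Fin n → Fin n → Matrix (Fin N) (Fin N) ℂ,
          ∑ a, ∑ b, ∑ i, ∑ j, F a b i j = ∑ i, ∑ j, ∑ a, ∑ b, F a b i j := by
        intro F
        calc ∑ a, ∑ b, ∑ i, ∑ j, F a b i j = ∑ a, ∑ i, ∑ b, ∑ j, F a b i j :=
              Finset.sum_congr rfl fun a _ => Finset.sum_comm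
          _ = ∑ i, ∑ a, ∑ b, ∑ j, F a b i j := Finset.sum_comm
          _ = ∑ i, ∑ a, ∑ j, ∑ b, F a b i j := Finset.sum_congr rfl fun i _ =>
              Finset.sum_congr rfl fun a _ => Finset.sum_comm
          _ = ∑ i, ∑ j, ∑ a, ∑ b, F a b i j := Finset.sum_congr rfl fun i _ => Finset.sum_comm
      rw [c1]
      refine Finset.sum_congr rfl fun i _ => Finset.sum_congr rfl fun j _ =>
        Finset.sum_congr rfl fun a _ => Finset.sum_congr rfl fun b _ => ?_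
      simp only [smul_smul]
      congr 1
      ring
    · simp only [Finset.smul_sum]
      have c1 : ∀ F : Fin n → Fin n → Fin n → Matrix (Fin N) (Fin N) ℂ,
          ∑ a, ∑ b, ∑ i, F a b i = ∑ i, ∑ a, ∑ b, F a b i := by
        intro F
        calc ∑ a, ∑ b, ∑ i, F a b i = ∑ a, ∑ i, ∑ b, F a b i :=
              Finset.sum_congr rfl fun a _ => Finset.sum_comm
          _ = _ := Finset.sum_comm
      rw [c1]
  rw [h4]
  unfold Rk
  simp only [dyy sk sY sW s0 sy]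
  simp only [dy1 sk sY sW s0 sy]
  simp only [smul_add, smul_sub, Matrix.add_mul, Matrix.sub_mul, Finset.sum_add_distrib,
    Finset.sum_sub_distrib]
  have h5 : ∑ i, ∑ j, (s z.2 i j : ℂ) • ∑ a, Y a z.1 * pdm i (pdm j (W a)) z.2 +
      ∑ i, (∑ a, Y a z.1 * pdm i (W a) z.2) * β i z.2 = ∑ a, Y a z.1 * Rv s β (W a) z.2 := by
    unfold Rv
    simp only [Matrix.mul_add, Finset.sum_add_distrib, Finset.smul_sum, Finset.mul_sum,
      Finset.sum_mul, Matrix.mul_smul, Matrix.mul_assoc]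
    congr 1
    · symm
      rw [Finset.sum_comm]
      exact Finset.sum_congr rfl fun i _ => Finset.sum_comm
    · exact Finset.sum_comm
  have h6 : ∑ i, ∑ j, (s z.2 i j : ℂ) • pdm i (pdm j W0) z.2 + ∑ i, pdm i W0 z.2 * β i z.2 =
      -(∑ i, ∑ j, (s z.2 i j : ℂ) • k2 i j z.2 +
      ∑ a, Y a z.2 * ∑ b, Γ a b z.2 * R b z.2) := hW0
  have h7 : ∑ i, ∑ j, (s z.2 i j : ℂ) • k2 j i z.2 = ∑ i, ∑ j, (s z.2 i j : ℂ) • k2 i j z.2 :=
    Finset.sum_congr rfl fun i _ => Finset.sum_congr rfl fun j _ => by rw [sy i j]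
  rw [h7, ← h5]
  rw [← sub_eq_zero] at h6
  rw [← sub_eq_zero]
  refine Eq.trans ?_ h6
  abel

end eqs

/-- `P` is invertible. -/
theorem da_inv (n N : ℕ) : ∃ (k : ℕ) (δ₀ : ℝ), 0 < δ₀ ∧ ∀ (O : Set (V n)) (s : MF n) (P : MC n N)
    (G : Fin n → MC n N), Da k δ₀ O s P G → (∀ x, IsUnit (P x).det) ∧ SmC (fun x => (P x)⁻¹) ∧
      (∀ j, SmC (bL s P G j)) ∧ ∀ j, SmC (bR s P G j) := by
  obtain ⟨C₁, ε₁, hC₁, hε₁, hinv⟩ := H91.inv n N 0
  refine ⟨0, ε₁, hε₁, fun O s P G d => ?_⟩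
  obtain ⟨hu, hi, -⟩ := hinv P d.sP ε₁ hε₁.le le_rfl d.cP
  have hTs : ∀ j, SmC (fun x => ∑ i, pdm i (TP s P i j) x) := fun j =>
    smC_sum fun i => smC_pdm (smC_TP d.ss d.sP i j) i
  have hks := smC_kp d.ss d.sG
  exact ⟨hu, hi, fun j => SmC_mul hi (smC_add (hTs j) (hks j)),
    fun j => SmC_mul (smC_sub (hTs j) (hks j)) hi⟩

theorem sm_lb {s : MF n} {β : Fin n → MC n N} {k2 : Fin n → Fin n → MC n N}
    (ss : SmM s) (sb : ∀ j, SmC (β j)) (sk : ∀ i j, SmC (k2 i j)) (b : Fin n) :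
    SmC (lb s β k2 b) := by
  unfold lb
  exact smC_add (smC_sum fun i => smC_sum fun j => smC_smulr (contDiff_pd (ss i j) b) (sk i j))
    (smC_sum fun j => SmC_mul (sb j) (sk j b))

theorem symm_inv {s τ : MF n} (hsy : ∀ x, (s x).IsSymm) (hi : ∀ x, s x * τ x = 1) (x : V n) :
    (τ x).IsSymm := by
  have h1 : s x * τ x = 1 := hi x
  have h3 : (τ x)ᵀ * s x = 1 := by
    have := congrArg Matrix.transpose h1
    rw [Matrix.transpose_mul, Matrix.transpose_one, (hsy x).eq] at this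
    exact this
  calc (τ x)ᵀ = (τ x)ᵀ * (s x * τ x) := by rw [h1, Matrix.mul_one]
    _ = ((τ x)ᵀ * s x) * τ x := by rw [Matrix.mul_assoc]
    _ = τ x := by rw [h3, Matrix.one_mul]

theorem Kq_eq (s₁ σ : MF n) (β Y : Fin n → MC n N) (k2 : Fin n → Fin n → MC n N)
    (W : Fin n → MC n N) (W₀ : MC n N) : Kq s₁ σ β Y k2 W W₀ =
    fun z => Kf k2 Y W W₀ z + c3 s₁ σ β k2 z := by
  funext z
  unfold Kq Kf qq
  push_cast
  abel

/-- **(X-KL)** The two equations of the approximate solution. -/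
theorem rowXKL : RowXKL := by
  intro n N
  obtain ⟨k, δ₀, hδ₀, hda⟩ := da_inv n N
  refine ⟨k, δ₀, hδ₀, ?_⟩
  intro O K j₀ s₁ s₂ P₁ P₂ G₁ G₂ β Y D h Γ hΓ τ sτ hτ k2 hk W W₀ hc
  obtain ⟨hu₂, -, -, -⟩ := hda (O ∩ K) s₂ P₂ G₂ h.d₂
  have hsτ := symm_inv h.d₁.sy hτ
  have sl : ∀ b, SmC (lb s₁ β k2 b) := sm_lb h.d₁.ss h.sβ hk.sm
  have sC : ∀ a b, ContDiff ℝ ∞ fun z => c3 s₁ τ β k2 z a b := sm_c3 sτ sl
  have sK : ∀ a b, ContDiff ℝ ∞ fun z => Kf k2 Y W W₀ z a b := fun a b =>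
    contDiffOn_univ.1 (smK_Kf hk.sm h.sY hc.sW hc.s0 a b)
  rw [Kq_eq]
  refine ⟨fun a b => ((sK a b).add (sC a b)).contDiffOn, ?_, ?_⟩
  · intro z hz
    have e1 : Lk s₁ β (Kf k2 Y W W₀) z = _ :=
      eqL1 hk.sm h.sY hc.sW hc.s0 hk.sy hk.tf β fun a => h.LY a z.1 hz.1
    rw [Lk_add sK sC, e1]
    have e3 := lap_c3 (s := s₁) (σ := τ) (β := β) (k2 := k2) sτ hsτ h.d₁.sy hτ sl z
    unfold Fx
    have e4 : ∑ i, ∑ j, ((s₁ z.1 i j - s₁ z.2 i j : ℝ) : ℂ) •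
        dxk i (dxk j (c3 s₁ τ β k2)) z =
        ∑ i, ∑ j, (s₁ z.1 i j : ℂ) • dxk i (dxk j (c3 s₁ τ β k2)) z +
          qB (lb s₁ β k2) z := by
      have : ∑ i, ∑ j, ((s₁ z.1 i j - s₁ z.2 i j : ℝ) : ℂ) •
        dxk i (dxk j (c3 s₁ τ β k2)) z =
        ∑ i, ∑ j, (s₁ z.1 i j : ℂ) • dxk i (dxk j (c3 s₁ τ β k2)) z -
        ∑ i, ∑ j, (s₁ z.2 i j : ℂ) • dxk i (dxk j (c3 s₁ τ β k2)) z := by
        simp only [← Finset.sum_sub_distrib, Complex.ofReal_sub, sub_smul]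
      rw [this, e3]
      abel
    have e5 : ∑ i, ∑ j, ((s₁ z.1 i j - s₁ z.2 i j -
          ∑ b, (z.1 b - z.2 b) * pd b (fun y => s₁ y i j) z.2 : ℝ) : ℂ) • k2 i j z.2 =
        ∑ i, ∑ j, ((s₁ z.1 i j - s₁ z.2 i j : ℝ) : ℂ) • k2 i j z.2 -
        ∑ b, qq b z • ∑ i, ∑ j, ((pd b (fun y => s₁ y i j) z.2 : ℝ) : ℂ) • k2 i j z.2 := by
      have : ∑ b, qq b z • ∑ i, ∑ j, ((pd b (fun y => s₁ y i j) z.2 : ℝ) : ℂ) • k2 i j z.2 =
          ∑ i, ∑ j, (∑ b, qq b z * ((pd b (fun y => s₁ y i j) z.2 : ℝ) : ℂ)) • k2 i j z.2 := by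
        simp only [Finset.smul_sum, Finset.sum_smul, smul_smul]
        rw [Finset.sum_comm]
        exact Finset.sum_congr rfl fun i _ => Finset.sum_comm
      rw [this]
      simp only [← Finset.sum_sub_distrib, ← sub_smul]
      refine Finset.sum_congr rfl fun i _ => Finset.sum_congr rfl fun j _ => ?_
      congr 1
      unfold qq
      push_cast
      rfl
    have e6 : ∑ j, ∑ b, ((z.1 b - z.2 b : ℝ) : ℂ) •
          ((β j z.1 - β j z.2) * k2 j b z.2) =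
        ∑ j, ∑ b, ((z.1 b - z.2 b : ℝ) : ℂ) • (β j z.1 * k2 j b z.2) -
          ∑ b, qq b z • ∑ j, β j z.2 * k2 j b z.2 := by
      have : ∑ b, qq b z • ∑ j, β j z.2 * k2 j b z.2 =
          ∑ j, ∑ b, ((z.1 b - z.2 b : ℝ) : ℂ) • (β j z.2 * k2 j b z.2) := by
        simp only [Finset.smul_sum]
        exact Finset.sum_comm
      rw [this]
      simp only [← Finset.sum_sub_distrib, ← smul_sub, ← Matrix.sub_mul]
    have e7 : qB (lb s₁ β k2) z =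
        ∑ b, qq b z • ∑ i, ∑ j, ((pd b (fun y => s₁ y i j) z.2 : ℝ) : ℂ) • k2 i j z.2 +
          ∑ b, qq b z • ∑ j, β j z.2 * k2 j b z.2 := by
      unfold qB lb
      simp only [smul_add, Finset.sum_add_distrib]
    rw [e4, e5, e6, e7]
    unfold Lk
    abel
  · intro z hz
    rw [Rk_add sK sC]
    have e1 := eqL2t (Γ := Γ) (R := fun b x => rh s₁ s₂ τ P₂ G₂ β k2 b x * (P₂ x)⁻¹)
      (T := fun b x => ta s₁ s₂ τ P₂ β k2 b x * (P₂ x)⁻¹)
      hk.sm h.sY hc.sW hc.s0 hk.sy h.d₂.sy (bR s₂ P₂ G₂) (z := z)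
      (fun l b => hΓ.li l b z.2)
      (fun b => by
        show (rhb s₂ P₂ G₂ k2 b z.2 + ta s₁ s₂ τ P₂ β k2 b z.2) * (P₂ z.2)⁻¹ = _
        rw [Matrix.add_mul, rhb_eq G₂ k2 (hu₂ z.2) b])
      (fun a => by
        rw [hc.eW a z.2 hz.2]
        simp only [Matrix.mul_assoc])
      (by
        rw [hc.e0 z.2 hz.2, Matrix.add_mul]
        have h2 : ∀ A : Matrix (Fin N) (Fin N) ℂ, A * P₂ z.2 * (P₂ z.2)⁻¹ = A := fun A => by
          rw [Matrix.mul_assoc, Matrix.mul_nonsing_inv _ (hu₂ z.2), Matrix.mul_one]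
        congr 2
        · rw [Finset.sum_mul]
          refine Finset.sum_congr rfl fun i _ => ?_
          rw [Finset.sum_mul]
          refine Finset.sum_congr rfl fun j _ => ?_
          unfold TP
          rw [Matrix.mul_smul, Matrix.smul_mul, h2]
        · rw [Finset.sum_mul]
          refine Finset.sum_congr rfl fun a _ => ?_
          rw [Finset.sum_mul, Finset.mul_sum]
          refine Finset.sum_congr rfl fun b _ => ?_
          simp only [Matrix.mul_assoc])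
    rw [e1]
    unfold Fy
    have e2 : (∑ b, ((z.1 b - z.2 b : ℝ) : ℂ) • ta s₁ s₂ τ P₂ β k2 b z.2) * (P₂ z.2)⁻¹ =
        ∑ l, qq l z • (ta s₁ s₂ τ P₂ β k2 l z.2 * (P₂ z.2)⁻¹) := by
      rw [Finset.sum_mul]
      exact Finset.sum_congr rfl fun b _ => by rw [Matrix.smul_mul]; rfl
    rw [e2]
    simp only [Matrix.mul_assoc]
    abel

end Vale.Agent.P088.S4.H858
end
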