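import Vale.Agent.P088.R2.H349.S4.SpecA
import Vale.Agent.P088.R2.H605.V.Kla

/-!
# P088, stage 4: the cubic term of the approximate solution (row X-KL, part 1)
-/

open MeasureTheory Set
open scoped ContDiff Matrix

noncomputable section

namespace Vale.Agent.P088.S4.H858

open Vale.Agent.P088.LR Vale.Agent.P088.LR.U Vale.Agent.P088.LR.H158
open Vale.Agent.P088.HY (VV)
open Vale.Agent.P088.PJ Vale.Agent.P088.PJ.H605

variable {n N : ℕ}

/-! ### linearity of the operators -/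

theorem sm_dm {E : Type*} [NormedAddCommGroup E] [NormedSpace ℝ E] (v : E)
    {K : E → Matrix (Fin N) (Fin N) ℂ} (hK : ∀ a b, ContDiff ℝ ∞ fun z => K z a b) (a b : Fin N) :
    ContDiff ℝ ∞ fun z => dm v K z a b := by
  have h : ContDiff ℝ ∞ (fderiv ℝ fun z => K z a b) := (hK a b).fderiv_right (by simp)
  exact h.clm_apply contDiff_const

section lin

variable {K C : KC n N} (sK : ∀ a b, ContDiff ℝ ∞ fun z => K z a b)
  (sC : ∀ a b, ContDiff ℝ ∞ fun z => C z a b)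

include sK sC

theorem dxk_add (i : Fin n) : dxk i (fun z => K z + C z) = fun z => dxk i K z + dxk i C z :=
  ((HD.of (v := ((Pi.single i 1, 0) : VV n)) sK).add (HD.of sC)).eq

theorem dyk_add (i : Fin n) : dyk i (fun z => K z + C z) = fun z => dyk i K z + dyk i C z :=
  ((HD.of (v := ((0, Pi.single i 1) : VV n)) sK).add (HD.of sC)).eq

theorem Lk_add (s : MF n) (β : Fin n → MC n N) (z : VV n) :
    Lk s β (fun z => K z + C z) z = Lk s β K z + Lk s β C z := by
  unfold Lk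
  have h2 : ∀ i j, dxk i (dxk j (fun z => K z + C z)) =
      fun z => dxk i (dxk j K) z + dxk i (dxk j C) z := by
    intro i j
    rw [dxk_add sK sC j]
    exact dxk_add (sm_dm _ sK) (sm_dm _ sC) i
  simp only [h2]
  simp only [dxk_add sK sC, smul_add, Matrix.mul_add, Finset.sum_add_distrib]
  abel

theorem Rk_add (s : MF n) (β : Fin n → MC n N) (z : VV n) :
    Rk s β (fun z => K z + C z) z = Rk s β K z + Rk s β C z := by
  unfold Rk
  have h2 : ∀ i j, dyk i (dyk j (fun z => K z + C z)) =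
      fun z => dyk i (dyk j K) z + dyk i (dyk j C) z := by
    intro i j
    rw [dyk_add sK sC j]
    exact dyk_add (sm_dm _ sK) (sm_dm _ sC) i
  simp only [h2]
  simp only [dyk_add sK sC, smul_add, Matrix.add_mul, Finset.sum_add_distrib]
  abel

end lin

/-! ### the cubic term -/

theorem hs_x2 {f : V n → ℂ} (hf : ContDiff ℝ ∞ f) (i : Fin n) :
    HS ((Pi.single i 1, 0) : VV n) (fun z => f z.2) (fun _ => 0) :=
  ⟨hf.comp contDiff_snd, fun z => by
    rw [fd_snd hf z]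
    simp⟩

theorem HS.sum {E : Type*} [NormedAddCommGroup E] [NormedSpace ℝ E] {v : E} {ι : Type*}
    [Fintype ι] {c c' : ι → E → ℂ} (h : ∀ i, HS v (c i) (c' i)) :
    HS v (fun z => ∑ i, c i z) (fun z => ∑ i, c' i z) := by
  refine ⟨ContDiff.sum fun i _ => (h i).sm, fun z => ?_⟩
  rw [fderiv_fun_sum fun i _ => df (h i).sm z, _root_.sum_apply]
  exact Finset.sum_congr rfl fun i _ => (h i).eq z

/-- `σ_cd`, complex valued. -/
def sg (σ : MF n) (c d : Fin n) : V n → ℂ := fun x => ((σ x c d : ℝ) : ℂ)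

theorem sm_sg {σ : MF n} (hσ : SmM σ) (c d : Fin n) : ContDiff ℝ ∞ (sg σ c d) :=
  Complex.ofRealCLM.contDiff.comp (hσ c d)

/-- `∑ σ_cd(y) q_c q_d`. -/
def qA (σ : MF n) (z : VV n) : ℂ := ∑ c, ∑ d, sg σ c d z.2 * (qq c z * qq d z)

/-- `∑ σ_jd(y) q_d`. -/
def qS (σ : MF n) (j : Fin n) (z : VV n) : ℂ := ∑ d, sg σ j d z.2 * qq d z

/-- `∑ q_b l_b(y)`. -/
def qB (l : Fin n → MC n N) (z : VV n) : Matrix (Fin N) (Fin N) ℂ := ∑ b, qq b z • l b z.2

theorem hs_qA {σ : MF n} (hσ : SmM σ) (hs : ∀ x, (σ x).IsSymm) (i : Fin n) :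
    HS ((Pi.single i 1, 0) : VV n) (qA σ) (fun z => 2 * qS σ i z) := by
  have h := HS.sum fun c => HS.sum fun d => (hs_x2 (sm_sg hσ c d) i).mul
    ((hs_qx c i).mul (hs_qx d i))
  refine HS.congr h fun z => ?_
  unfold qS
  simp only [zero_mul, zero_add, mul_add, ite_mul, one_mul, mul_ite, mul_one, mul_zero,
    Finset.sum_add_distrib, Finset.sum_ite_irrel, Finset.sum_const_zero, Finset.sum_ite_eq',
    Finset.mem_univ, if_true]
  have e : ∑ x, sg σ x i z.2 * qq x z = ∑ d, sg σ i d z.2 * qq d z :=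
    Finset.sum_congr rfl fun c _ => by unfold sg; rw [(hs z.2).apply i c]
  rw [e]
  ring

theorem hs_qS {σ : MF n} (hσ : SmM σ) (j i : Fin n) :
    HS ((Pi.single i 1, 0) : VV n) (qS σ j) (fun z => sg σ j i z.2) := by
  have h := HS.sum fun d => (hs_x2 (sm_sg hσ j d) i).mul (hs_qx d i)
  refine HS.congr h fun z => ?_
  simp only [zero_mul, zero_add, mul_ite, mul_one, mul_zero, Finset.sum_ite_eq', Finset.mem_univ,
    if_true]

theorem hd_qB {l : Fin n → MC n N} (sl : ∀ b, SmC (l b)) (i : Fin n) :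
    HD ((Pi.single i 1, 0) : VV n) (qB l) (fun z => l i z.2) := by
  have h := HD.sum fun b => HD.smul (hs_qx b i) (hd_x2 (sl b) i)
  refine HD.congr h fun z => ?_
  simp only [smul_zero, add_zero, ite_smul, one_smul, zero_smul, Finset.sum_ite_eq',
    Finset.mem_univ, if_true]

/-- The cubic term up to the constant. -/
def cq (σ : MF n) (l : Fin n → MC n N) : KC n N := fun z => qA σ z • qB l z

section cub

variable {σ : MF n} {l : Fin n → MC n N} (hσ : SmM σ) (hs : ∀ x, (σ x).IsSymm)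
  (sl : ∀ b, SmC (l b))

include hσ sl

theorem hd_cq (hs : ∀ x, (σ x).IsSymm) (j : Fin n) : HD ((Pi.single j 1, 0) : VV n) (cq σ l)
    (fun z => (2 * qS σ j z) • qB l z + qA σ z • l j z.2) :=
  HD.smul (hs_qA hσ hs j) (hd_qB sl j)

theorem hd_cq2 (hs : ∀ x, (σ x).IsSymm) (i j : Fin n) : HD ((Pi.single i 1, 0) : VV n)
    (fun z => (2 * qS σ j z) • qB l z + qA σ z • l j z.2)
    (fun z => (2 * sg σ j i z.2) • qB l z + (2 * qS σ j z) • l i z.2
      + (2 * qS σ i z) • l j z.2) := by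
  have h := (HD.smul ((HS.const (2 : ℂ)).mul (hs_qS hσ j i)) (hd_qB sl i)).add
    (HD.smul (hs_qA hσ hs i) (hd_x2 (sl j) i))
  refine HD.congr h fun z => ?_
  simp only [zero_mul, zero_add, smul_zero, add_zero]

/-- `∑ s_ij ∂_i ∂_j (|q|²_σ ∑ q_b l_b) = 2 (n + 2) ∑ q_b l_b`. -/
theorem lap_cq (hs : ∀ x, (σ x).IsSymm) {s : MF n} (hsy : ∀ x, (s x).IsSymm)
    (hi : ∀ x, s x * σ x = 1) (z : VV n) :
    ∑ i, ∑ j, (s z.2 i j : ℂ) • dxk i (dxk j (cq σ l)) z = (2 * (n + 2) : ℂ) • qB l z := by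
  have e1 : ∀ i j, dxk i (dxk j (cq σ l)) z = (2 * sg σ j i z.2) • qB l z +
      (2 * qS σ j z) • l i z.2 + (2 * qS σ i z) • l j z.2 := by
    intro i j
    have h1 : dxk j (cq σ l) = _ := (hd_cq hσ sl hs j).eq
    rw [h1]
    exact congrFun (hd_cq2 hσ sl hs i j).eq z
  simp only [e1, smul_add, Finset.sum_add_distrib, smul_smul]
  have e2 : ∀ i k : Fin n, ∑ j, (s z.2 i j : ℂ) * sg σ j k z.2 = if i = k then 1 else 0 := by
    intro i k
    have h1 : (s z.2 * σ z.2) i k = (1 : Matrix (Fin n) (Fin n) ℝ) i k := by rw [hi]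
    rw [Matrix.mul_apply, Matrix.one_apply] at h1
    have h2 : ((∑ j, s z.2 i j * σ z.2 j k : ℝ) : ℂ) = ((if i = k then 1 else 0 : ℝ) : ℂ) := by
      rw [h1]
    have h3 : ∑ j, (s z.2 i j : ℂ) * sg σ j k z.2 = ((∑ j, s z.2 i j * σ z.2 j k : ℝ) : ℂ) := by
      unfold sg
      push_cast
      rfl
    rw [h3, h2]
    split_ifs <;> simp
  have e3 : ∀ i : Fin n, ∑ j, (s z.2 i j : ℂ) * qS σ j z = qq i z := by
    intro i
    unfold qS
    simp only [Finset.mul_sum]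
    rw [Finset.sum_comm]
    have : ∀ d : Fin n, ∑ j, (s z.2 i j : ℂ) * (sg σ j d z.2 * qq d z) =
        (if i = d then 1 else 0) * qq d z := by
      intro d
      rw [← e2 i d, Finset.sum_mul]
      exact Finset.sum_congr rfl fun j _ => by ring
    simp only [this, ite_mul, one_mul, zero_mul, Finset.sum_ite_eq, Finset.mem_univ, if_true]
  have t1 : ∑ i, ∑ j, ((s z.2 i j : ℂ) * (2 * sg σ j i z.2)) • qB l z = (2 * n : ℂ) • qB l z := by
    simp only [← Finset.sum_smul]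
    congr 1
    have : ∀ i : Fin n, ∑ j, (s z.2 i j : ℂ) * (2 * sg σ j i z.2) = 2 := by
      intro i
      have h1 := e2 i i
      rw [if_pos rfl] at h1
      have h2 : ∑ j, (s z.2 i j : ℂ) * (2 * sg σ j i z.2) =
          2 * ∑ j, (s z.2 i j : ℂ) * sg σ j i z.2 := by
        rw [Finset.mul_sum]
        exact Finset.sum_congr rfl fun j _ => by ring
      rw [h2, h1, mul_one]
    simp only [this, Finset.sum_const, Finset.card_univ, Fintype.card_fin, nsmul_eq_mul]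
    ring
  have t2 : ∑ i, ∑ j, ((s z.2 i j : ℂ) * (2 * qS σ j z)) • l i z.2 = (2 : ℂ) • qB l z := by
    unfold qB
    rw [Finset.smul_sum]
    refine Finset.sum_congr rfl fun i _ => ?_
    rw [← Finset.sum_smul, smul_smul]
    congr 1
    rw [← e3 i, Finset.mul_sum]
    exact Finset.sum_congr rfl fun j _ => by ring
  have t3 : ∑ i, ∑ j, ((s z.2 i j : ℂ) * (2 * qS σ i z)) • l j z.2 = (2 : ℂ) • qB l z := by
    rw [Finset.sum_comm, ← t2]
    refine Finset.sum_congr rfl fun i _ => Finset.sum_congr rfl fun j _ => ?_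
    rw [(hsy z.2).apply i j]
  rw [t1, t2, t3]
  module

end cub

/-- The cubic term. -/
theorem c3_eq (s : MF n) (σ : MF n) (β : Fin n → MC n N)
    (k2 : Fin n → Fin n → MC n N) :
    c3 s σ β k2 = fun z => (-(1 / (2 * (n + 2))) : ℂ) • cq σ (lb s β k2) z := by
  funext z
  unfold c3 cq qA qB sg qq
  rw [smul_smul]
  congr 1
  push_cast
  rw [neg_div, neg_mul, div_eq_inv_mul, one_div]
  congr 2
  refine Finset.sum_congr rfl fun c _ => Finset.sum_congr rfl fun d _ => ?_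
  ring

theorem sm_cq {σ : MF n} {l : Fin n → MC n N} (hσ : SmM σ) (sl : ∀ b, SmC (l b)) (a b : Fin N) :
    ContDiff ℝ ∞ fun z => cq σ l z a b := by
  unfold cq qA qB sg
  simp only [Matrix.smul_apply, Matrix.sum_apply, smul_eq_mul]
  have hq : ∀ a : Fin n, ContDiff ℝ ∞ (qq a : VV n → ℂ) := fun a => (qL a).contDiff
  refine ContDiff.mul (ContDiff.sum fun c _ => ContDiff.sum fun d _ =>
    ((sm_sg hσ c d).comp contDiff_snd).mul ((hq c).mul (hq d)))
    (ContDiff.sum fun c _ => (hq c).mul ((sl c a b).comp contDiff_snd))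

theorem sm_c3 {s σ : MF n} {β : Fin n → MC n N} {k2 : Fin n → Fin n → MC n N}
    (hσ : SmM σ) (sl : ∀ b, SmC (lb s β k2 b)) (a b : Fin N) :
    ContDiff ℝ ∞ fun z => c3 s σ β k2 z a b := by
  rw [c3_eq]
  simp only [Matrix.smul_apply, smul_eq_mul]
  exact contDiff_const.mul (sm_cq hσ sl a b)

/-- `∑ s_ij(y) ∂_i ∂_j c3 = - ∑ q_b l_b(y)`. -/
theorem lap_c3 {s σ : MF n} {β : Fin n → MC n N} {k2 : Fin n → Fin n → MC n N}
    (hσ : SmM σ) (hs : ∀ x, (σ x).IsSymm) (hsy : ∀ x, (s x).IsSymm) (hi : ∀ x, s x * σ x = 1)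
    (sl : ∀ b, SmC (lb s β k2 b)) (z : VV n) :
    ∑ i, ∑ j, (s z.2 i j : ℂ) • dxk i (dxk j (c3 s σ β k2)) z = -qB (lb s β k2) z := by
  rw [c3_eq]
  have e1 : ∀ i j, dxk i (dxk j (fun z => (-(1 / (2 * (n + 2))) : ℂ) • cq σ (lb s β k2) z)) z =
      (-(1 / (2 * (n + 2))) : ℂ) • dxk i (dxk j (cq σ (lb s β k2))) z := by
    intro i j
    have h1 : dxk j (fun z => (-(1 / (2 * (n + 2))) : ℂ) • cq σ (lb s β k2) z) =
        fun z => (-(1 / (2 * (n + 2))) : ℂ) • dxk j (cq σ (lb s β k2)) z :=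
      ((HD.of (v := ((Pi.single j 1, 0) : VV n)) (sm_cq hσ sl)).smulc _).eq
    rw [h1]
    exact congrFun ((HD.of (v := ((Pi.single i 1, 0) : VV n))
      (sm_dm _ (sm_cq hσ sl))).smulc (-(1 / (2 * (n + 2))) : ℂ)).eq z
  simp only [e1]
  have e2 : ∑ i, ∑ j, (s z.2 i j : ℂ) • (-(1 / (2 * (n + 2))) : ℂ) •
      dxk i (dxk j (cq σ (lb s β k2))) z = (-(1 / (2 * (n + 2))) : ℂ) •
      ∑ i, ∑ j, (s z.2 i j : ℂ) • dxk i (dxk j (cq σ (lb s β k2))) z := by
    simp only [Finset.smul_sum]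
    exact Finset.sum_congr rfl fun i _ => Finset.sum_congr rfl fun j _ => smul_comm _ _ _
  rw [e2, lap_cq hσ sl hs hsy hi, smul_smul]
  have h3 : ((n : ℂ) + 2) ≠ 0 := by exact_mod_cast (by omega : n + 2 ≠ 0)
  have h4 : (-(1 / (2 * (n + 2))) : ℂ) * (2 * (n + 2)) = -1 := by
    field_simp
  rw [h4]
  module

end Vale.Agent.P088.S4.H858
end
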